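import Vale.Agent.P358.Final

namespace Vale.Agent.Results.P358.Additivity

open Vale.Agent.P358

theorem result (γ ν : ℝ) (hγ : γ ∈ Set.Icc (0 : ℝ) 1) (hν : ν ∈ Set.Icc (0 : ℝ) 1) :
    (∀ n : ℕ, BddAbove (holevoSet (tensorPow (gadc γ ν) n))) ∧
    BddAbove (holevoSet (gadc γ ν)) ∧
    (∀ n : ℕ, 1 ≤ n → holevo (tensorPow (gadc γ ν) n) = n * holevo (gadc γ ν)) ∧
    capacity (gadc γ ν) = holevo (gadc γ ν) ∧
    IsGreatest (scalarFn γ ν '' Set.Icc 0 1) (capacity (gadc γ ν)) :=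
  have h := main hγ hν
  ⟨h.1, h.2.1, fun n _ => h.2.2.1 n, h.2.2.2⟩

end Vale.Agent.Results.P358.Additivity
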